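import Vale.Agent.P067.Defs
import Vale.Agent.P067.Final

/-!
# P067: bounded-degree coboundary expanders exist in every dimension
-/

namespace Vale.Agent.Results.P067.CoboundaryExpanders

open Vale.Agent.P067

/-- For every `d ≥ 1` there are `D`, `ε > 0` and a sequence of finite connected pure
`d`-dimensional complexes with numbers of vertices tending to infinity, of degree at most `D`,
each an `ε`-coboundary expander. -/
theorem result : ∀ d : ℕ, 1 ≤ d → ∃ (D : ℕ) (ε : ℝ), 0 < ε ∧ ∃ X : ℕ → PureComplex d,
    Filter.Tendsto (fun m => (X m).vertices.card) Filter.atTop Filter.atTop ∧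
    ∀ m, (X m).Connected ∧ (X m).degree ≤ D ∧ (X m).IsCoboundaryExpander ε :=
  fun _ hd => sequence_form (final hd)

end Vale.Agent.Results.P067.CoboundaryExpanders
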